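import Mathlib

/-!
# Measure of a small cap of the unit sphere

Helper for `P309.H19_CountingBound`: for an additive Haar measure `μ` on a finite-dimensional real
normed space `E` of dimension `n`, the set of points of the unit sphere within distance `ε ≤ 1` of a
given point has `μ.toSphere`-measure at most `4 (2 ε)^(n-1)` times the total measure of the sphere.
Proof: the cone over the cap is covered by `⌈1/ε⌉` balls of radius `2 ε`.
-/

open MeasureTheory Metric Set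
open scoped Pointwise ENNReal

namespace Vale.Agent.Lib.P309.H19

section cap
variable {E : Type*} [NormedAddCommGroup E] [NormedSpace ℝ E]

theorem cone_subset (shat : E) (hshat : ‖shat‖ ≤ 1) (ε : ℝ) (hε : 0 < ε) (m : ℕ)
    (hm : 1 / ε ≤ (m : ℝ)) :
    Ioo (0 : ℝ) 1 • ((↑) '' {s : sphere (0 : E) 1 | ‖(s : E) - shat‖ ≤ ε}) ⊆
      ⋃ k ∈ Finset.range m, closedBall ((((k : ℝ) + 1) / m) • shat) (2 * ε) := by
  have hm0 : (0 : ℝ) < m := lt_of_lt_of_le (by positivity) hm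
  rintro x ⟨t, ⟨ht0, ht1⟩, y, ⟨s, hs, rfl⟩, rfl⟩
  simp only [Set.mem_ofPred_eq] at hs
  simp only [Set.mem_iUnion, Finset.mem_range, mem_closedBall, exists_prop]
  have htm0 : 0 < t * m := by positivity
  have htm1 : t * m < m := by nlinarith
  refine ⟨⌈t * m⌉₊ - 1, ?_, ?_⟩
  · have h1 : ⌈t * (m : ℝ)⌉₊ ≤ m := Nat.ceil_le.mpr htm1.le
    have h2 : 0 < ⌈t * (m : ℝ)⌉₊ := Nat.ceil_pos.mpr htm0
    omega
  · have h2 : 0 < ⌈t * (m : ℝ)⌉₊ := Nat.ceil_pos.mpr htm0
    have hcast : (((⌈t * (m : ℝ)⌉₊ - 1 : ℕ) : ℝ) + 1) = (⌈t * (m : ℝ)⌉₊ : ℝ) := by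
      have : 1 ≤ ⌈t * (m : ℝ)⌉₊ := h2
      push_cast [Nat.cast_sub this]; ring
    rw [hcast]
    set c : ℝ := (⌈t * (m : ℝ)⌉₊ : ℝ) / m with hc
    have hc1 : t ≤ c := by
      rw [hc, le_div_iff₀ hm0]; exact Nat.le_ceil _
    have hc2 : c - t ≤ ε := by
      have h3 : (⌈t * (m : ℝ)⌉₊ : ℝ) < t * m + 1 := Nat.ceil_lt_add_one htm0.le
      have h4 : c < t + 1 / m := by
        rw [hc, div_lt_iff₀ hm0]
        have : (t + 1 / (m : ℝ)) * m = t * m + 1 := by field_simp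
        linarith
      have h5 : 1 / (m : ℝ) ≤ ε := by
        rw [div_le_iff₀ hm0]
        have := (div_le_iff₀ hε).mp hm
        linarith
      linarith
    calc dist (t • (s : E)) (c • shat)
        ≤ dist (t • (s : E)) (t • shat) + dist (t • shat) (c • shat) := dist_triangle _ _ _
      _ = t * ‖(s : E) - shat‖ + (c - t) * ‖shat‖ := by
          rw [dist_eq_norm, dist_eq_norm, ← smul_sub, ← sub_smul, norm_smul, norm_smul,
            Real.norm_of_nonneg ht0.le, Real.norm_eq_abs, abs_sub_comm,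
            abs_of_nonneg (sub_nonneg.mpr hc1)]
      _ ≤ 1 * ε + ε * 1 := by
          gcongr
      _ = 2 * ε := by ring

variable [MeasurableSpace E] [BorelSpace E]
  [FiniteDimensional ℝ E] (μ : Measure E) [μ.IsAddHaarMeasure]

theorem cap_bound (shat : E) (hshat : ‖shat‖ ≤ 1) (ε : ℝ) (hε : 0 < ε) (hε1 : ε ≤ 1) :
    μ.toSphere {s : sphere (0 : E) 1 | ‖(s : E) - shat‖ ≤ ε} ≤
      ENNReal.ofReal (4 * (2 * ε) ^ (Module.finrank ℝ E - 1)) * μ.toSphere univ := by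
  have hmeas : MeasurableSet {s : sphere (0 : E) 1 | ‖(s : E) - shat‖ ≤ ε} := by
    apply IsClosed.measurableSet
    exact isClosed_le (by fun_prop) continuous_const
  rcases Nat.eq_zero_or_pos (Module.finrank ℝ E) with h0 | hpos
  · have : μ.toSphere = 0 := (Measure.toSphere_eq_zero_iff_finrank μ).mpr h0
    simp [this]
  rw [Measure.toSphere_apply' μ hmeas, Measure.toSphere_apply_univ]
  set m : ℕ := ⌈1 / ε⌉₊ with hm
  have hm1 : 1 / ε ≤ (m : ℝ) := Nat.le_ceil _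
  have hm2 : (m : ℝ) ≤ 2 / ε := by
    have h1 : (m : ℝ) < 1 / ε + 1 := Nat.ceil_lt_add_one (by positivity)
    have h2 : (1 : ℝ) ≤ 1 / ε := by rw [le_div_iff₀ hε]; linarith
    have h3 : 2 / ε = 1 / ε + 1 / ε := by ring
    linarith
  have hcover := cone_subset shat hshat ε hε m hm1
  have hvol : μ (Ioo (0 : ℝ) 1 • ((↑) '' {s : sphere (0 : E) 1 | ‖(s : E) - shat‖ ≤ ε})) ≤
      (m : ℝ≥0∞) * (ENNReal.ofReal ((2 * ε) ^ Module.finrank ℝ E) * μ (ball 0 1)) := by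
    calc μ (Ioo (0 : ℝ) 1 • ((↑) '' {s : sphere (0 : E) 1 | ‖(s : E) - shat‖ ≤ ε}))
        ≤ μ (⋃ k ∈ Finset.range m, closedBall ((((k : ℝ) + 1) / m) • shat) (2 * ε)) :=
          measure_mono hcover
      _ ≤ ∑ k ∈ Finset.range m, μ (closedBall ((((k : ℝ) + 1) / m) • shat) (2 * ε)) :=
          measure_biUnion_finset_le _ _
      _ = ∑ k ∈ Finset.range m, ENNReal.ofReal ((2 * ε) ^ Module.finrank ℝ E) * μ (ball 0 1) := by
          refine Finset.sum_congr rfl fun k _ => ?_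
          rw [Measure.addHaar_closedBall μ _ (by positivity)]
      _ = (m : ℝ≥0∞) * (ENNReal.ofReal ((2 * ε) ^ Module.finrank ℝ E) * μ (ball 0 1)) := by
          simp
  have hnum : (m : ℝ≥0∞) * ENNReal.ofReal ((2 * ε) ^ Module.finrank ℝ E) ≤
      ENNReal.ofReal (4 * (2 * ε) ^ (Module.finrank ℝ E - 1)) := by
    have : (m : ℝ≥0∞) = ENNReal.ofReal (m : ℝ) := by simp
    rw [this, ← ENNReal.ofReal_mul (by positivity)]
    apply ENNReal.ofReal_le_ofReal
    have hpow : (2 * ε) ^ Module.finrank ℝ E = (2 * ε) ^ (Module.finrank ℝ E - 1) * (2 * ε) := by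
      rw [← pow_succ]; congr 1; omega
    rw [hpow]
    have h5 : (m : ℝ) * (2 * ε) ≤ 4 := by
      have := (le_div_iff₀ hε).mp hm2
      linarith
    have h6 : 0 ≤ (2 * ε) ^ (Module.finrank ℝ E - 1) := by positivity
    nlinarith
  calc (Module.finrank ℝ E : ℝ≥0∞) *
        μ (Ioo (0 : ℝ) 1 • ((↑) '' {s : sphere (0 : E) 1 | ‖(s : E) - shat‖ ≤ ε}))
      ≤ (Module.finrank ℝ E : ℝ≥0∞) *
          ((m : ℝ≥0∞) * (ENNReal.ofReal ((2 * ε) ^ Module.finrank ℝ E) * μ (ball 0 1))) := by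
        gcongr
    _ = ((m : ℝ≥0∞) * ENNReal.ofReal ((2 * ε) ^ Module.finrank ℝ E)) *
          ((Module.finrank ℝ E : ℝ≥0∞) * μ (ball 0 1)) := by ring
    _ ≤ ENNReal.ofReal (4 * (2 * ε) ^ (Module.finrank ℝ E - 1)) *
          ((Module.finrank ℝ E : ℝ≥0∞) * μ (ball 0 1)) := by
        gcongr
end cap

end Vale.Agent.Lib.P309.H19
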